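import Mathlib

namespace Vale.Agent.Results.P183.A_DistributiveLattices

universe u

/-- A finite algebra: a nonempty finite carrier together with a finite family `ops` of total
operations, the operation `i` having the finite arity `arity i`. -/
structure FinAlgebra : Type (u + 1) where
  /-- the carrier set -/
  carrier : Type u
  /-- the index set of the operations -/
  ops : Type u
  /-- the arity of each operation -/
  arity : ops → ℕ
  /-- the operations themselves, as total functions -/
  op : ∀ i : ops, (Fin (arity i) → carrier) → carrier
  carrier_finite : Finite carrier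
  carrier_nonempty : Nonempty carrier
  ops_finite : Finite ops

/-- A congruence of `A`: an equivalence relation on the carrier compatible with every
operation. -/
def IsCongruence (A : FinAlgebra.{u}) (r : Setoid A.carrier) : Prop :=
  ∀ (i : A.ops) (x y : Fin (A.arity i) → A.carrier),
    (∀ j, r.r (x j) (y j)) → r.r (A.op i x) (A.op i y)

/-- `Con A`: the set of all congruences of `A`, ordered by inclusion of relations. -/
abbrev Con (A : FinAlgebra.{u}) : Type u :=
  {r : Setoid A.carrier // IsCongruence A r}

/-- `L` is representable when it is order isomorphic to the entire congruence lattice of some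
finite algebra. -/
def Representable (L : Type u) [LE L] : Prop :=
  ∃ A : FinAlgebra.{u}, Nonempty (L ≃o Con A)

section Construction

variable {P : Type u} [PartialOrder P]

/-- the unary map sending `p` to `q` and every other point of `Option P` to `none` -/
noncomputable def stepOp (p q : P) (a : Option P) : Option P :=
  haveI := Classical.decEq (Option P)
  if a = some p then some q else none

omit [PartialOrder P] in
lemma stepOp_self (p q : P) : stepOp p q (some p) = some q := by
  simp [stepOp]

omit [PartialOrder P] in
lemma stepOp_ne (p q : P) {a : Option P} (h : a ≠ some p) : stepOp p q a = none := by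
  simp [stepOp, h]

omit [PartialOrder P] in
lemma stepOp_eq_some (p q r : P) {a : Option P} (h : stepOp p q a = some r) :
    a = some p ∧ r = q := by
  by_cases ha : a = some p
  · subst ha
    rw [stepOp_self] at h
    exact ⟨rfl, (Option.some.inj h).symm⟩
  · rw [stepOp_ne p q ha] at h
    cases h

/-- The unary algebra attached to a finite poset `P`: carrier `P` plus one new point `none`;
for every pair `q ≤ p` one unary operation sending `p` to `q` and every other point to
`none`. -/
noncomputable def algOf (P : Type u) [PartialOrder P] [Finite P] : FinAlgebra.{u} where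
  carrier := Option P
  ops := {pq : P × P // pq.2 ≤ pq.1}
  arity := fun _ => 1
  op := fun i x => stepOp i.1.1 i.1.2 (x ⟨0, Nat.one_pos⟩)
  carrier_finite := inferInstance
  carrier_nonempty := ⟨none⟩
  ops_finite := inferInstance

/-- membership of a point of `Option P` in `D` plus the new point -/
def inD (D : LowerSet P) (x : Option P) : Prop := ∀ p, x = some p → p ∈ D

/-- the equivalence relation collapsing `D` plus the new point -/
def thetaSetoid (D : LowerSet P) : Setoid (Option P) where
  r x y := x = y ∨ (inD D x ∧ inD D y)
  iseqv :=
    ⟨fun _ => Or.inl rfl,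
     fun h => h.elim (fun e => Or.inl e.symm) (fun h => Or.inr ⟨h.2, h.1⟩),
     by
      rintro x y z (rfl | ⟨hx, hy⟩) (rfl | ⟨hy', hz⟩)
      · exact Or.inl rfl
      · exact Or.inr ⟨hy', hz⟩
      · exact Or.inr ⟨hx, hy⟩
      · exact Or.inr ⟨hx, hz⟩⟩

lemma theta_step (D : LowerSet P) (p q : P) (hqp : q ≤ p) (a b : Option P)
    (h : (thetaSetoid D).r a b) : (thetaSetoid D).r (stepOp p q a) (stepOp p q b) := by
  rcases h with h | ⟨ha, hb⟩
  · subst h
    exact Or.inl rfl
  · refine Or.inr ⟨?_, ?_⟩
    · intro r hr
      obtain ⟨h1, h2⟩ := stepOp_eq_some p q r hr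
      rw [h2]
      exact D.lower hqp (ha p h1)
    · intro r hr
      obtain ⟨h1, h2⟩ := stepOp_eq_some p q r hr
      rw [h2]
      exact D.lower hqp (hb p h1)

lemma theta_congr [Finite P] (D : LowerSet P) : IsCongruence (algOf P) (thetaSetoid D) :=
  fun i _ _ h => theta_step D i.1.1 i.1.2 i.2 _ _ (h ⟨0, Nat.one_pos⟩)

lemma congr_step [Finite P] (θ : Setoid (Option P)) (hθ : IsCongruence (algOf P) θ)
    (p q : P) (hqp : q ≤ p) (a b : Option P) (hab : θ.r a b) :
    θ.r (stepOp p q a) (stepOp p q b) :=
  hθ ⟨(p, q), hqp⟩ (fun _ => a) (fun _ => b) (fun _ => hab)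

lemma congr_is_theta [Finite P] (θ : Setoid (Option P)) (hθ : IsCongruence (algOf P) θ) :
    ∃ D : LowerSet P, thetaSetoid D = θ := by
  have hlower : IsLowerSet {p : P | θ.r (some p) none} := by
    intro a b hba ha
    have h1 := congr_step θ hθ a b hba (some a) none ha
    rw [stepOp_self, stepOp_ne a b (by simp)] at h1
    exact h1
  refine ⟨⟨{p : P | θ.r (some p) none}, hlower⟩, Setoid.ext fun a b => ?_⟩
  have hD : ∀ a : Option P,
      inD (⟨{p : P | θ.r (some p) none}, hlower⟩ : LowerSet P) a → θ.r a none := by
    intro a ha
    cases a with
    | none => exact θ.refl _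
    | some p => exact ha p rfl
  constructor
  · rintro (rfl | ⟨ha, hb⟩)
    · exact θ.refl _
    · exact θ.trans (hD a ha) (θ.symm (hD b hb))
  · intro hab
    by_cases hne : a = b
    · exact Or.inl hne
    · refine Or.inr ⟨?_, ?_⟩
      · intro p hp
        subst hp
        have h1 := congr_step θ hθ p p le_rfl (some p) b hab
        rw [stepOp_self, stepOp_ne p p (fun e => hne e.symm)] at h1
        exact h1
      · intro p hp
        subst hp
        have h1 := congr_step θ hθ p p le_rfl a (some p) hab
        rw [stepOp_self, stepOp_ne p p hne] at h1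
        exact θ.symm h1

theorem lowerSet_representable (P : Type u) [PartialOrder P] [Finite P] :
    Nonempty (LowerSet P ≃o Con (algOf P)) := by
  let Φ : LowerSet P → Con (algOf P) := fun D => ⟨thetaSetoid D, theta_congr D⟩
  have hle : ∀ D D' : LowerSet P, Φ D ≤ Φ D' ↔ D ≤ D' := by
    intro D D'
    constructor
    · intro h p hp
      have h1 : (thetaSetoid D).r (some p) none :=
        Or.inr ⟨fun q hq => by cases hq; exact hp, fun q hq => by cases hq⟩
      have h2 : (thetaSetoid D').r (some p) none := h h1
      rcases h2 with h2 | ⟨h2, _⟩
      · cases h2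
      · exact h2 p rfl
    · intro h x y hxy
      rcases hxy with rfl | ⟨hx, hy⟩
      · exact Or.inl rfl
      · exact Or.inr ⟨fun p hp => h (hx p hp), fun p hp => h (hy p hp)⟩
  have hsurj : Function.Surjective Φ := by
    rintro ⟨θ, hθ⟩
    obtain ⟨D, hD⟩ := congr_is_theta θ hθ
    exact ⟨D, Subtype.ext hD⟩
  exact ⟨RelIso.ofSurjective (OrderEmbedding.ofMapLEIff Φ hle) hsurj⟩

end Construction

/-- Every finite distributive lattice is representable: it is order isomorphic to the whole
congruence lattice of a finite algebra (here a unary algebra whose carrier is the set of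
join-irreducible elements plus one extra point). -/
theorem result (L : Type u) [DistribLattice L] [Finite L] [Nonempty L] : Representable L := by
  classical
  let _ : Fintype L := Fintype.ofFinite L
  let _ : OrderBot L := Fintype.toOrderBot L
  obtain ⟨e⟩ := lowerSet_representable {a : L // SupIrred a}
  exact ⟨algOf {a : L // SupIrred a}, ⟨OrderIso.lowerSetSupIrred.trans e⟩⟩

end Vale.Agent.Results.P183.A_DistributiveLattices
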